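import Vale.Agent.P170.Defs
import Vale.Agent.P170.Transfer

open Filter Topology

/-- The satisfiability threshold conjecture: for every `k ≥ 3` random `k`-SAT has a limiting
threshold `α ∈ (0, ∞)`. -/
theorem Vale.Agent.Results.P170.Threshold.result (k : ℕ) (hk : 3 ≤ k) :
    ∃ α : ℝ, 0 < α ∧
      (∀ c : ℝ, 0 ≤ c → c < α →
        Tendsto (fun n : ℕ => Vale.Agent.P170.satProb k n ⌊c * (n : ℝ)⌋₊) atTop (𝓝 1)) ∧
      (∀ c : ℝ, α < c →
        Tendsto (fun n : ℕ => Vale.Agent.P170.satProb k n ⌊c * (n : ℝ)⌋₊) atTop (𝓝 0)) :=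
  Vale.Agent.P170.main hk
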